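import Vale.Agent.Lib.P369.Infinite3

/-!
Entropy photon-number inequality, second input the vacuum, for every two-mode state commuting with
the total photon number, with no photon-number cut-off and no energy hypothesis.
-/

namespace Vale.Agent.Results.P369.TwoModeGaugeAll

open Matrix Vale.Agent.Lib.P369
open scoped ComplexOrder ENNReal

theorem result (ρ : ℕ × ℕ → ℕ × ℕ → ℂ)
    (hgauge : ∀ e f, e.1 + e.2 ≠ f.1 + f.2 → ρ e f = 0)
    (hpsd : ∀ m, (levelBlock ρ m).PosSemidef)
    (htr : HasSum (fun e => ρ e e) 1)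
    (η : ℝ) (h0 : 0 ≤ η) (h1 : η ≤ 1) :
    (∀ m, (levelBlock (lossOutput η ρ) m).PosSemidef) ∧
      ∀ u : ℝ, 0 ≤ u → ENNReal.ofReal (2 * gFun u) ≤ gaugeEntropy ρ →
        ENNReal.ofReal (2 * gFun (η * u)) ≤ gaugeEntropy (lossOutput η ρ) :=
  ⟨fun m => output_block_posSemidef hgauge hpsd htr h0 h1 m,
    fun _ hu hS => main_infinite hgauge hpsd htr h0 h1 hu hS⟩

end Vale.Agent.Results.P369.TwoModeGaugeAll
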