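import Vale.Agent.Lib.P369.Final

/-!
Entropy photon-number inequality, second input the vacuum, for every two-mode state commuting with
the total photon number and supported on finitely many photon numbers.
-/

namespace Vale.Agent.Results.P369.TwoModeGaugeVacuum

open Matrix Vale.Agent.Lib.P369
open scoped ComplexOrder

theorem result {L : ℕ} (ρ : Matrix (Fock2 L) (Fock2 L) ℂ) (hρ : ρ.PosSemidef) (htr : trace ρ = 1)
    (hgauge : ∀ e f, photons e ≠ photons f → ρ e f = 0) (η : ℝ) (h0 : 0 ≤ η) (h1 : η ≤ 1) :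
    (lossChannel η ρ).PosSemidef ∧ trace (lossChannel η ρ) = 1 ∧
      η * entropyPhotonNumber 2 ρ ≤ entropyPhotonNumber 2 (lossChannel η ρ) := by
  obtain ⟨h2, h3⟩ := lossChannel_state hρ hgauge htr h0 h1
  exact ⟨h2, h3, main_two_mode hρ hgauge htr h0 h1⟩

end Vale.Agent.Results.P369.TwoModeGaugeVacuum
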